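import Mathlib

namespace Vale.Agent.Results.P061.ThinTreeConstant

/-- A loopless multigraph with vertex type `V` and edge-copy type `E`: every edge copy `e : E`
has an unordered pair `ends e` of distinct endpoints. Parallel edges are distinct elements of
`E` with the same pair of endpoints, so every copy is counted separately. -/
structure Multigraph (V E : Type) where
  ends : E → Sym2 V
  loopless : ∀ e, ¬ (ends e).IsDiag

namespace Multigraph

variable {V E : Type}

/-- The cut `δ_G(S)`: the set of edge copies with exactly one endpoint in `S`. -/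
def cut (G : Multigraph V E) (S : Set V) : Set E :=
  {e | ∃ u v, G.ends e = s(u, v) ∧ u ∈ S ∧ v ∉ S}

/-- `G` is `k`-edge-connected: every nonempty proper vertex set has at least `k` cut edges. -/
def EdgeConnected (G : Multigraph V E) (k : ℕ) : Prop :=
  ∀ S : Set V, S.Nonempty → S ≠ Set.univ → k ≤ (G.cut S).ncard

/-- The simple graph on `V` in which `u` and `v` are adjacent when some edge copy in `T`
joins them. -/
def graphOn (G : Multigraph V E) (T : Set E) : SimpleGraph V :=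
  SimpleGraph.fromRel (fun u v => ∃ e ∈ T, G.ends e = s(u, v))

/-- `T` is a spanning tree of `G`: a set of `|V| - 1` edge copies forming a tree on `V`. -/
def IsSpanningTree (G : Multigraph V E) (T : Set E) : Prop :=
  T.ncard + 1 = Nat.card V ∧ (G.graphOn T).IsTree

/-- `T` is `α`-thin: `|δ_T(S)| ≤ α |δ_G(S)|` for every nonempty proper vertex set `S`. -/
def IsThin (G : Multigraph V E) (α : ℝ) (T : Set E) : Prop :=
  ∀ S : Set V, S.Nonempty → S ≠ Set.univ →
    ((T ∩ G.cut S).ncard : ℝ) ≤ α * ((G.cut S).ncard : ℝ)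

end Multigraph

/-- The complete graph on `V`, as a multigraph whose edge copies are the non-diagonal
unordered pairs. -/
def completeMG (V : Type) : Multigraph V {e : Sym2 V // ¬ e.IsDiag} where
  ends := Subtype.val
  loopless := fun e => e.2

theorem completeMG_cut_ncard {V : Type} [Finite V] (S : Set V) :
    ((completeMG V).cut S).ncard = S.ncard * Sᶜ.ncard := by
  have h1 : ((completeMG V).cut S).ncard
      = (Subtype.val '' ((completeMG V).cut S)).ncard :=
    (Set.ncard_image_of_injective _ Subtype.val_injective).symm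
  have h2 : Subtype.val '' ((completeMG V).cut S)
      = (fun p : V × V => s(p.1, p.2)) '' (S ×ˢ Sᶜ) := by
    ext e
    constructor
    · rintro ⟨e', ⟨u, v, he, hu, hv⟩, rfl⟩
      exact ⟨(u, v), ⟨hu, hv⟩, he.symm⟩
    · rintro ⟨⟨u, v⟩, ⟨hu, hv⟩, rfl⟩
      have hne : ¬ (s(u, v) : Sym2 V).IsDiag := by
        rw [Sym2.mk_isDiag_iff]
        rintro rfl
        exact hv hu
      exact ⟨⟨s(u, v), hne⟩, ⟨u, v, rfl, hu, hv⟩, rfl⟩
  have h3 : Set.InjOn (fun p : V × V => s(p.1, p.2)) (S ×ˢ Sᶜ) := by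
    rintro ⟨u, v⟩ ⟨hu, hv⟩ ⟨u', v'⟩ ⟨hu', hv'⟩ h
    simp only [Sym2.eq_iff] at h
    rcases h with ⟨rfl, rfl⟩ | ⟨rfl, rfl⟩
    · rfl
    · exact absurd hu hv'
  rw [h1, h2, Set.InjOn.ncard_image h3, Set.ncard_prod]

theorem completeMG_edgeConnected (k : ℕ) :
    (completeMG (Fin (k + 1))).EdgeConnected k := by
  intro S hne huniv
  rw [completeMG_cut_ncard]
  have hsum : S.ncard + Sᶜ.ncard = k + 1 := by
    rw [Set.ncard_add_ncard_compl, Nat.card_eq_fintype_card, Fintype.card_fin]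
  have ha : 1 ≤ S.ncard := by
    rw [Nat.succ_le_iff, Set.ncard_pos]
    exact hne
  have hb : 1 ≤ Sᶜ.ncard := by
    rw [Nat.succ_le_iff, Set.ncard_pos]
    exact Set.nonempty_compl.mpr huniv
  obtain ⟨a, ha'⟩ : ∃ a, S.ncard = a + 1 := ⟨S.ncard - 1, by omega⟩
  obtain ⟨b, hb'⟩ : ∃ b, Sᶜ.ncard = b + 1 := ⟨Sᶜ.ncard - 1, by omega⟩
  rw [ha', hb'] at hsum ⊢
  nlinarith

theorem completeMG_thin_bound (k : ℕ) (hk : 1 ≤ k) (T : Set {e : Sym2 (Fin (k + 1)) // ¬ e.IsDiag})
    (α : ℝ) (hT : (completeMG (Fin (k + 1))).IsSpanningTree T)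
    (hthin : (completeMG (Fin (k + 1))).IsThin α T) :
    4 * (k : ℝ) / ((k : ℝ) + 1) ^ 2 ≤ α := by
  obtain ⟨hcard, htree⟩ := hT
  have hcard' : T.ncard = k := by
    rw [Nat.card_eq_fintype_card, Fintype.card_fin] at hcard
    omega
  obtain ⟨c⟩ := htree.isBipartite
  set S : Set (Fin (k + 1)) := {v | c v = 0} with hS
  have hsub : T ⊆ (completeMG (Fin (k + 1))).cut S := by
    rintro ⟨e, he⟩ heT
    induction e using Sym2.ind with
    | _ u v =>
      have huv : u ≠ v := by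
        intro h
        exact he (Sym2.mk_isDiag_iff.mpr h)
      have hadj : ((completeMG (Fin (k + 1))).graphOn T).Adj u v := by
        refine ⟨huv, Or.inl ⟨⟨s(u, v), he⟩, heT, rfl⟩⟩
      have hc : c u ≠ c v := c.valid hadj
      by_cases hu : c u = 0
      · refine ⟨u, v, rfl, hu, ?_⟩
        intro hv
        exact hc (hu.trans (Eq.symm hv))
      · refine ⟨v, u, Sym2.eq_swap, ?_, hu⟩
        show c v = 0
        have h1 : ∀ x y : Fin 2, x ≠ y → x ≠ 0 → y = 0 := by decide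
        exact h1 _ _ hc hu
  have hTne : T.Nonempty := by
    rw [← Set.ncard_pos, hcard']
    exact hk
  obtain ⟨e0, he0⟩ := hTne
  obtain ⟨u0, v0, -, hu0, hv0⟩ := hsub he0
  have hSne : S.Nonempty := ⟨u0, hu0⟩
  have hSuniv : S ≠ Set.univ := by
    intro h
    exact hv0 (h ▸ Set.mem_univ v0)
  have h := hthin S hSne hSuniv
  rw [Set.inter_eq_left.mpr hsub, hcard', completeMG_cut_ncard] at h
  have hsum : S.ncard + Sᶜ.ncard = k + 1 := by
    rw [Set.ncard_add_ncard_compl, Nat.card_eq_fintype_card, Fintype.card_fin]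
  have hsumR : (S.ncard : ℝ) + (Sᶜ.ncard : ℝ) = (k : ℝ) + 1 := by
    exact_mod_cast hsum
  push_cast at h
  have hkR : (1 : ℝ) ≤ (k : ℝ) := by exact_mod_cast hk
  have ha0 : (0 : ℝ) ≤ (S.ncard : ℝ) := Nat.cast_nonneg _
  have hb0 : (0 : ℝ) ≤ (Sᶜ.ncard : ℝ) := Nat.cast_nonneg _
  have hab0 : (0 : ℝ) ≤ (S.ncard : ℝ) * (Sᶜ.ncard : ℝ) := mul_nonneg ha0 hb0
  have hαpos : 0 < α := by
    by_contra hneg
    rw [not_lt] at hneg
    have : α * ((S.ncard : ℝ) * (Sᶜ.ncard : ℝ)) ≤ 0 := mul_nonpos_of_nonpos_of_nonneg hneg hab0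
    linarith
  have hAMGM : (S.ncard : ℝ) * (Sᶜ.ncard : ℝ) ≤ ((k : ℝ) + 1) ^ 2 / 4 := by
    nlinarith [sq_nonneg ((S.ncard : ℝ) - (Sᶜ.ncard : ℝ))]
  have hfinal : (k : ℝ) ≤ α * (((k : ℝ) + 1) ^ 2 / 4) :=
    le_trans h (mul_le_mul_of_nonneg_left hAMGM hαpos.le)
  rw [div_le_iff₀ (by positivity)]
  linarith

/-- Main result. -/
theorem result :
    (∀ k : ℕ, 1 ≤ k → ∃ (V E : Type) (_ : Fintype V) (_ : Fintype E) (G : Multigraph V E),
        2 ≤ Nat.card V ∧ G.EdgeConnected k ∧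
        ∀ (T : Set E) (α : ℝ), G.IsSpanningTree T → G.IsThin α T →
          4 * (k : ℝ) / ((k : ℝ) + 1) ^ 2 ≤ α) ∧
    (∀ C : ℝ,
      (∀ k : ℕ, 1 ≤ k → ∀ (V E : Type) [Fintype V] [Fintype E] (G : Multigraph V E),
        2 ≤ Nat.card V → G.EdgeConnected k →
        ∃ T : Set E, G.IsSpanningTree T ∧ G.IsThin (C / (k : ℝ)) T) → 4 ≤ C) := by
  have part1 : ∀ k : ℕ, 1 ≤ k → ∃ (V E : Type) (_ : Fintype V) (_ : Fintype E)
      (G : Multigraph V E),
        2 ≤ Nat.card V ∧ G.EdgeConnected k ∧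
        ∀ (T : Set E) (α : ℝ), G.IsSpanningTree T → G.IsThin α T →
          4 * (k : ℝ) / ((k : ℝ) + 1) ^ 2 ≤ α := by
    intro k hk
    classical
    refine ⟨Fin (k + 1), {e : Sym2 (Fin (k + 1)) // ¬ e.IsDiag}, inferInstance, inferInstance,
      completeMG (Fin (k + 1)), ?_, completeMG_edgeConnected k, ?_⟩
    · rw [Nat.card_eq_fintype_card, Fintype.card_fin]
      omega
    · intro T α hT hthin
      exact completeMG_thin_bound k hk T α hT hthin
  refine ⟨part1, ?_⟩
  intro C hC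
  by_contra hlt
  rw [not_le] at hlt
  obtain ⟨k, hk⟩ := exists_nat_gt (12 / (4 - C) + 1)
  have h4C : 0 < 4 - C := by linarith
  have hk1R : (1 : ℝ) < (k : ℝ) := by
    have : 0 < 12 / (4 - C) := by positivity
    linarith
  have hk1 : 1 ≤ k := by
    have : (1 : ℝ) ≤ (k : ℝ) := hk1R.le
    exact_mod_cast this
  obtain ⟨V, E, hV, hE, G, hcardV, hconn, hbound⟩ := part1 k hk1
  obtain ⟨T, hT, hthin⟩ := hC k hk1 V E G hcardV hconn
  have h := hbound T (C / (k : ℝ)) hT hthin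
  have hkpos : (0 : ℝ) < (k : ℝ) := by linarith
  rw [div_le_div_iff₀ (by positivity) hkpos] at h
  have hk2 : 12 < (4 - C) * ((k : ℝ) - 1) := by
    have : 12 / (4 - C) < (k : ℝ) - 1 := by linarith
    rw [div_lt_iff₀ h4C] at this
    linarith
  nlinarith

end Vale.Agent.Results.P061.ThinTreeConstant
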